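import Mathlib
import Vale.Agent.P069.Defs
import Vale.Agent.P069.NotAUC
import Vale.Agent.P069.Separable

set_option autoImplicit false

/-!
# P069: a reflexive AMUC space without an equivalent AUC norm

The question Q1 of P069 has a negative answer: there is a separable reflexive infinite-dimensional
real Banach space whose norm is AMUC (with midpoint modulus bounded below by
`√(1 + t²/256) - 1`, hence of power type `2`) and which has no equivalent AUC norm.
-/

namespace Vale.Agent.Results.P069.Disproof

open Vale.Agent.P069

theorem result : ∃ (X : Type) (_ : NormedAddCommGroup X) (_ : NormedSpace ℝ X),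
    CompleteSpace X ∧ ¬ FiniteDimensional ℝ X ∧ TopologicalSpace.SeparableSpace X ∧
    IsReflexive X ∧
    IsAMUC (normSeminorm ℝ X) ∧
    (∀ t : ℝ, 0 < t →
      ((Real.sqrt (1 + t ^ 2 / 256) - 1 : ℝ) : EReal) ≤ amucModulus (normSeminorm ℝ X) t) ∧
    AMUCRenormable X ∧ ¬ AUCRenormable X :=
  ⟨XS, inferInstance, inferInstance, inferInstance, not_finiteDimensional_XS, separable_XS,
    isReflexive_XS, isAMUC_XS, amucModulus_XS, amucRenormable_XS, not_aucRenormable_XS⟩

end Vale.Agent.Results.P069.Disproof
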